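import Vale.Agent.P088.Bridge

open MeasureTheory Set
open scoped Manifold ContDiff
open Vale.Agent.P088.Spec

namespace Vale.Agent.Results.P088.PureGauge

variable {n : ℕ} {E H : Type} [NormedAddCommGroup E] [NormedSpace ℝ E] [MeasureSpace E]
  [TopologicalSpace H] (I : ModelWithCorners ℝ E H) (e : Fin n → E)

/-- The statement for the model `I`, the basis `e` and the action `act`. -/
def Holds {F B : Type} [NormedAddCommGroup F] [NormedSpace ℝ F] [InnerProductSpace ℂ F]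
    [NormedRing B] [NormedSpace ℝ B] [StarMul B] (act : B → F → F) : Prop :=
  ∀ (M : Type) [TopologicalSpace M] [ChartedSpace H M] [IsManifold I ∞ M] [T2Space M]
    [CompactSpace M] [ConnectedSpace M] [MeasurableSpace M] [BorelSpace M]
    (Γ : Set M) (g : Met I M) (A₁ A₂ : Conn I M B), IsPatch I Γ → SameData e act Γ g g A₁ A₂ →
    (∀ s : M → F, Sm I s → (∀ x v, cov act A₁ s x v = 0) →
      ∃ t : M → F, Sm I t ∧ (∀ x v, cov act A₂ t x v = 0) ∧ ∀ x ∈ Γ, t x = s x) ∧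
    ∀ V : M → B, IsUni I V → (∀ x v, val A₁ x v = star (V x) * dif I V x v) →
      ∃ U : M → B, IsUni I U ∧ (∀ x ∈ Γ, U x = 1) ∧
        ∀ x v, val A₂ x v = star (U x) * val A₁ x v * U x + star (U x) * dif I U x v

/-- The statement for the fibre `F` with its complex linear endomorphisms. -/
def HoldsFor (F : Type) [NormedAddCommGroup F] [NormedSpace ℝ F] [InnerProductSpace ℂ F]
    [SMulCommClass ℂ ℝ F] [CompleteSpace F] : Prop :=
  Holds I e fun (T : F →L[ℂ] F) (a : F) => T a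

theorem result (n N : ℕ) [NeZero n] :
    HoldsFor (𝓡∂ n) (fun i : Fin n => EuclideanSpace.single i (1 : ℝ)) (EuclideanSpace ℂ (Fin N)) := by
  rintro M _ _ _ _ _ _ _ _ Γ g A₁ A₂ ⟨hne, O, hO, rfl⟩ hD
  obtain ⟨μ₁, μ₂, S₁, S₂, h1, h2, h3, h4, h5⟩ := hD.to
  obtain rfl := h1.unique h2
  have h := fun s hs s2 => P088.par_main (s := s) h1 hO hne.some_mem h3 h4
    (fun f hf => h5 f f hf hf) hs s2
  refine ⟨h, fun V hV hA => ?_⟩
  obtain ⟨U, u1, u2, u3, u4⟩ := P088.gauge hne h hV.1 hV.2 hA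
  exact ⟨U, ⟨u1, u2⟩, u3, u4⟩

end Vale.Agent.Results.P088.PureGauge
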